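import Vale.Agent.P032.H617.W.Hold

/-!
# P032: the two tables compared

`kld_cases` : a pair of the table of `H184.Z` is in the table `H617.WZ` or one of the 20 pairs
`rest20`.  `kill_LSK` : with one honest direction in each window no pair of `H184.Z` occurs, if the
20 pairs do not occur.
-/

open Set Filter Topology Metric

noncomputable section

namespace Vale.Agent.P032.H184.Hon617

open Vale.Agent.P032.Six
open Vale.Agent.P032.H429 (WinData Cl LS RS)
open Vale.Agent.P032.H266 (Hon)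

variable {U : Fin 6 → Set ℂ} {T : ℂ → Set (Fin 6)} {z : ℂ} {L R : Fin 6 → ℝ}

/-- the remaining pairs -/
def rest20 : List (ℕ × ℕ) := [
  (20429440648, 39783253640),
  (20429440648, 39783417480),
  (39756793480, 40014628488),
  (21536048776, 14030739104),
  (21536048776, 14030902944),
  (46463846024, 47530792584),
  (47537587848, 47530792584),
  (40058754696, 39867664986),
  (47564854920, 47433537090),
  (47564854920, 43156131930),
  (40047658632, 9215679258),
  (30418015880, 25972052202),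
  (47564854920, 43152445786),
  (47564854920, 47383844488),
  (30426273416, 25976117482),
  (40058754696, 39867664984),
  (47564854920, 47524484936),
  (47564854920, 47524484744),
  (47564854920, 43156115802),
  (40047658632, 30418016904)]

/-- the pair is one of the remaining ones -/
def inR (p q : ℕ) : Bool := rest20.any fun y => Nat.beq y.1 p && Nat.beq y.2 q

/-- every pair of the first list is in the second one or one of the remaining ones; both lists have
the same order -/
def mrg : List (ℕ × ℕ × ℕ) → List (ℕ × ℕ × ℕ) → Bool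
  | [], _ => true
  | x :: A, [] => inR x.1 x.2.1 && mrg A []
  | x :: A, y :: B => (Nat.beq x.1 y.1 && Nat.beq x.2.1 y.2.1 && mrg A B) ||
      (inR x.1 x.2.1 && mrg A (y :: B))

theorem inR_mem {p q : ℕ} (h : inR p q = true) : (p, q) ∈ rest20 := by
  unfold inR at h
  rw [List.any_eq_true] at h
  obtain ⟨y, hy, h1⟩ := h
  rw [Bool.and_eq_true] at h1
  have e1 := Nat.eq_of_beq_eq_true h1.1
  have e2 := Nat.eq_of_beq_eq_true h1.2
  have e : y = (p, q) := Prod.ext e1 e2
  rwa [e] at hy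

theorem mrg_spec : ∀ (A B : List (ℕ × ℕ × ℕ)), mrg A B = true → ∀ x ∈ A,
    (∃ g, (x.1, x.2.1, g) ∈ B) ∨ (x.1, x.2.1) ∈ rest20
  | [], _, _, x, hx => by cases hx
  | x :: A, [], h, y, hy => by
    rw [mrg, Bool.and_eq_true] at h
    rcases List.mem_cons.1 hy with rfl | hy
    · exact Or.inr (inR_mem h.1)
    · exact mrg_spec A [] h.2 y hy
  | x :: A, y :: B, h, w, hw => by
    rw [mrg, Bool.or_eq_true, Bool.and_eq_true, Bool.and_eq_true, Bool.and_eq_true] at h
    rcases h with ⟨⟨h1, h2⟩, h3⟩ | ⟨h1, h2⟩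
    · rcases List.mem_cons.1 hw with rfl | hw
      · refine Or.inl ⟨y.2.2, ?_⟩
        rw [Nat.eq_of_beq_eq_true h1, Nat.eq_of_beq_eq_true h2]
        exact List.mem_cons_self
      · rcases mrg_spec A B h3 w hw with ⟨g, hg⟩ | hg
        · exact Or.inl ⟨g, List.mem_cons_of_mem _ hg⟩
        · exact Or.inr hg
    · rcases List.mem_cons.1 hw with rfl | hw
      · exact Or.inr (inR_mem h1)
      · exact mrg_spec A (y :: B) h2 w hw

theorem mrg_ok : mrg Z.tabs.flatten.flatten H617.WZ.tabs.flatten.flatten = true := by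
  decide +kernel

/-- the remaining pairs, renamed and turned -/
def Kld20 (a b : Cl) : Prop :=
  ∃ (σ : Equiv.Perm (Fin 6)) (r : Fin 6) (p q : ℕ), (p, q) ∈ rest20 ∧ a = rcol σ r p ∧
    b = rcol σ r q

theorem kld_cases {a b : Cl} (h : Kld a b) : KldW a b ∨ Kld20 a b := by
  obtain ⟨σ, r, p, q, g, ⟨t, ht, l, hl, hx⟩, ha, hb⟩ := h
  have h1 : (p, q, g) ∈ Z.tabs.flatten.flatten :=
    List.mem_flatten.2 ⟨l, List.mem_flatten.2 ⟨t, ht, hl⟩, hx⟩
  rcases mrg_spec _ _ mrg_ok _ h1 with ⟨g', hg⟩ | hg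
  · obtain ⟨l', hl', hx'⟩ := List.mem_flatten.1 hg
    obtain ⟨t', ht', hl''⟩ := List.mem_flatten.1 hl'
    exact Or.inl ⟨σ, r, p, q, g', ⟨t', ht', l', hl'', hx'⟩, ha, hb⟩
  · exact Or.inr ⟨σ, r, p, q, hg, ha, hb⟩

/-- **no pair of the table of `H184.Z`**, one honest direction in each window -/
theorem kill_LSK (h : Irr U T)
    (hmin : ∀ z, 4 ≤ (T z).ncard → ∀ s, s ⊆ T z → s ≠ T z →
      ¬ ∀ᶠ w in 𝓝 z, ∃ i ∈ s, w ∈ U i ∨ (w ∈ XX U ∧ i ∈ Pal U w))
    (hz : ∀ i, i ∈ T z) (w : WinData T z L R) (hH : ∀ i, Hon U z L R i)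
    (h20 : ∀ u, ∀ s ∈ LS T z L R u, ∀ s' ∈ RS T z L R u, ¬ Kld20 s.1 s'.1) :
    ∀ u, ∀ s ∈ LS T z L R u, ∀ s' ∈ RS T z L R u, ¬ Kld s.1 s'.1 := by
  intro u s hs s' hs' hk
  rcases kld_cases hk with h1 | h1
  · exact kill_LSHon h hmin hz w hH u s hs s' hs' h1
  · exact h20 u s hs s' hs' h1

end Vale.Agent.P032.H184.Hon617
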