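import Vale.Agent.P032.H184.Hold
import Vale.Agent.P032.H617.WZ.Main

/-!
# P032: events of the table with one honest direction in each window

`loww_of` : the rules `LOWw` at a centre whose windows contain one honest direction of each colour.
`kill_LSHon` : no pair of the table `WZ.tabs`, renamed and turned, occurs.
-/

open Set Filter Topology Metric

noncomputable section

namespace Vale.Agent.P032.H184.Hon617

open Vale.Agent.P032.Six Vale.Agent.P032.Sweep Vale.Agent.P032.S5.H767 Vale.Agent.P032.S5.H122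
  Vale.Agent.P032.H158 Vale.Agent.P032.H437 Vale.Agent.P032.H782
open Vale.Agent.P032.H429 (wn wr WinData Cl St LS RS)
open Vale.Agent.P032.H314 (Hold hold_const hold_turn sh)
open Vale.Agent.P032.H266 (Hon no_out no_inn HD_of_Dr outN_of_occ innN_of_occ)
open Vale.Agent.P032.H617w (LOWw)

variable {U : Fin 6 → Set ℂ} {T : ℂ → Set (Fin 6)} {z : ℂ} {L R : Fin 6 → ℝ} {u : ℝ}
  {F : Bool → Ultrafilter ℝ}

/-- in front before and after: strictly in front -/
theorem front_of (w : WinData T z L R) {i k : Fin 6}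
    (h0 : H429.inn (wn L R u i) (k.val : ZMod 6)) (h1 : H429.inn (wr L R u i) (k.val : ZMod 6)) :
    ∃ n : ℤ, u + (k.val : ℝ) - 3 / 2 < L i + 6 * n ∧ R i + 6 * n < u + (k.val : ℝ) + 3 / 2 := by
  obtain ⟨v, hv, hv1, hv2⟩ := ((H429.wn_right L R u).and
    (Ioo_mem_nhdsGT (show u < u + 1 by linarith))).exists
  rw [← congrFun hv i] at h1
  obtain ⟨n, h2, h3⟩ := (w.inn_iff (t := u) (i := i) (j := (k.val : ℤ))).1 (by simpa using h0)
  obtain ⟨m, h4, h5⟩ := (w.inn_iff (t := v) (i := i) (j := (k.val : ℤ))).1 (by simpa using h1)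
  rw [← H429.sc_int, H429.le_sc] at h2 h4
  rw [← H429.sc_int, H429.sc_lt] at h3 h5
  push_cast at h2 h3 h4 h5
  have hle := w.le i
  have e : n = m := by
    have h6 : (n : ℝ) < m + 1 := by linarith
    have h7 : (m : ℝ) < n + 1 := by linarith
    have h8 : n < m + 1 := by exact_mod_cast h6
    have h9 : m < n + 1 := by exact_mod_cast h7
    omega
  subst e
  exact ⟨n, by linarith, by linarith⟩

/-- behind before and after: strictly behind -/
theorem back_of (w : WinData T z L R) {i k : Fin 6}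
    (h0 : H429.out (wn L R u i) (k.val : ZMod 6)) (h1 : H429.out (wr L R u i) (k.val : ZMod 6)) :
    ∃ n : ℤ, u + (k.val : ℝ) + 3 / 2 < L i + 6 * n ∧ R i + 6 * n < u + (k.val : ℝ) + 9 / 2 := by
  obtain ⟨v, hv, hv1, hv2⟩ := ((H429.wn_right L R u).and
    (Ioo_mem_nhdsGT (show u < u + 1 by linarith))).exists
  rw [← congrFun hv i] at h1
  obtain ⟨n, h2, h3⟩ := (w.out_iff (t := u) (i := i) (j := (k.val : ℤ))).1 (by simpa using h0)
  obtain ⟨m, h4, h5⟩ := (w.out_iff (t := v) (i := i) (j := (k.val : ℤ))).1 (by simpa using h1)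
  rw [← H429.sc_int, H429.le_sc] at h2 h4
  rw [← H429.sc_int, H429.sc_lt] at h3 h5
  push_cast at h2 h3 h4 h5
  have hle := w.le i
  have e : n = m := by
    have h6 : (n : ℝ) < m + 1 := by linarith
    have h7 : (m : ℝ) < n + 1 := by linarith
    have h8 : n < m + 1 := by exact_mod_cast h6
    have h9 : m < n + 1 := by exact_mod_cast h7
    omega
  subst e
  exact ⟨n, by linarith, by linarith⟩

/-- **the rules**, weak hulls -/
theorem loww_of (hf : Fr U T u F)
    (hmin : ∀ z, 4 ≤ (T z).ncard → ∀ s, s ⊆ T z → s ≠ T z →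
      ¬ ∀ᶠ w in 𝓝 z, ∃ i ∈ s, w ∈ U i ∨ (w ∈ XX U ∧ i ∈ Pal U w))
    (hz : ∀ i, i ∈ T z) (hle : ∀ i, L i ≤ R i)
    (hhO : ∀ k c : Fin 6, (atm U T z L R u F).OC k c →
      H429.inn (wn L R u c) (k.val : ZMod 6) → ¬ H429.inn (wr L R u c) (k.val : ZMod 6))
    (hhI : ∀ k c : Fin 6, (atm U T z L R u F).IC k c →
      H429.out (wn L R u c) (k.val : ZMod 6) → ¬ H429.out (wr L R u c) (k.val : ZMod 6))
    (hlen : ∀ (s : Bool) (i : Fin 6), (bif s then wr L R u i else wn L R u i).2 ≤ 3)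
    (hcov : ∀ (s : Bool) (m : ZMod 6), ∃ i : Fin 6, ∃ d : Fin 3,
      d.val < (bif s then wr L R u i else wn L R u i).2 ∧
        (bif s then wr L R u i else wn L R u i).1 + d.val + 1 = m)
    (hin : ∀ (s : Bool) (j i : Fin 6), Inn (F s) T z (j.val : ℝ) i →
      H429.inn (bif s then wr L R u i else wn L R u i) (j.val : ZMod 6))
    (hout : ∀ (s : Bool) (j i : Fin 6), Out (F s) T z (j.val : ℝ) i →
      H429.out (bif s then wr L R u i else wn L R u i) (j.val : ZMod 6))
    (hio : ∀ (s : Bool) (j i : Fin 6), Inn (F s) T z (j.val : ℝ) i → ¬ Out (F s) T z (j.val : ℝ) i) :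
    LOWw (atm U T z L R u F) := by
  have hK := frK_of hf
  have lo := lok_of_frK hK hmin z
  have e0 : lK z (fun _ : Fin 1 => u) (q1 0 0) = z := by rw [lK_q1, lp_zero]
  have eb : ∀ k : Fin 6, lK z (fun _ : Fin 1 => u) (q1 (dx k) (dy k)) = pt z (u + (k.val : ℝ)) :=
    fun k => by rw [lK_q1, lp_nb]
  have tb : ∀ k c, (atm U T z L R u F).TT (dx k) (dy k) c ↔ c ∈ T (pt z (u + (k.val : ℝ))) := by
    intro k c
    show c ∈ T (lK z (fun _ : Fin 1 => u) (q1 (dx k) (dy k))) ↔ _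
    rw [eb]
  have g4 : ∀ {m n : ℤ} {k : ℕ}, GEK (TK T z (fun _ : Fin 1 => u)) (q1 m n) k →
      (atm U T z L R u F).GE m n k := fun h => ge_iff.2 h
  have g4' : ∀ {m n : ℤ} {k : ℕ}, ¬ (atm U T z L R u F).GE m n k →
      ¬ GEK (TK T z (fun _ : Fin 1 => u)) (q1 m n) k := fun h h' => h (ge_iff.2 h')
  exact {
    six := by
      intro i
      show i ∈ T (lK z (fun _ : Fin 1 => u) (q1 0 0))
      rw [e0]; exact hz i
    memb := by
      intro s m n j i hi
      have h1 := lo.memb (c := 0) hi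
      rw [st_q1] at h1
      exact h1
    neI := fun s m n j => lo.neI 0 s (q1 m n) j
    neO := fun s m n j => lo.neO 0 s (q1 m n) j
    inL := fun s m n j i hi => lo.IL (c := 0) hi
    outL := fun s m n j i hi => lo.OL (c := 0) hi
    lio := fun s m n j i hi => lo.LIO (c := 0) hi
    pair2 := fun s m n j i hi ht => lo.pair (c := 0) hi ht
    sub4 := by
      intro s m n j
      rcases lo.sub4 0 s (q1 m n) j with h1 | h1
      · exact Or.inl (g4 h1)
      · exact Or.inr h1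
    sideIO := by
      intro s j i h1 h2
      have h1 : Inn (F s) T (lK z (fun _ : Fin 1 => u) (q1 0 0)) (j.val : ℝ) i := h1
      have h2 : Out (F s) T (lK z (fun _ : Fin 1 => u) (q1 0 0)) (j.val : ℝ) i := h2
      rw [e0] at h1 h2
      exact hio s j i h1 h2
    side4 := by
      intro s m n j x y a b hxy hxa hxb hya hyb hab hM hM' hi ho
      by_contra h5
      exact H894.side4K (FF := fun _ : Fin 1 => F) (c := 0) (σ := s) (j := j) hK.irr z hxa hxb hya hyb (g4' h5) hM hM' hi ho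
    symM := fun m n a b h => lo.symM h
    defM := fun s m n j a b hab h1 h2 h3 h4 => lo.defM (c := 0) hab h1 h2 h3 h4
    sweepO := by
      intro s m n j j' hs s'
      have h1 := lo.swO 0 0 s s' (q1 m n) j j' (by rw [sk_eq]; exact mod_d s s' j j' hs)
      rw [st_q1] at h1
      exact h1
    sweepI := by
      intro s m n j j' hs s'
      have h1 := lo.swI 0 0 s s' (q1 m n) j j' (by rw [sk_eq]; exact mod_i s s' j j' hs)
      rw [st_q1] at h1
      exact h1
    wedgeO := by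
      intro s m n j
      have h1 := lo.swO 0 0 s s (q1 m n) j j (by rw [sk_eq]; exact mod_0 s j)
      rw [st_q1] at h1
      exact h1
    wedgeI := by
      intro s m n j
      have h1 := lo.swI 0 0 s (!s) (q1 m n) j j (by
        rw [sk_eq, mod_0]; cases s <;> decide)
      rw [st_q1] at h1
      exact h1
    wedgeO' := by
      intro s m n j
      have h1 := lo.swO 0 0 s (!s) (q1 m n) j (j + 3) (by
        rw [sk_eq, mod_3]; cases s <;> decide)
      rw [st_q1] at h1
      exact h1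
    wedgeI' := by
      intro s m n j
      have h1 := lo.swI 0 0 s s (q1 m n) j (j + 3) (by
        rw [sk_eq, mod_3]; cases s <;> decide)
      rw [st_q1] at h1
      exact h1
    sixty := fun s m n j i hi => lo.sixty (c := 0) hi
    product := by
      intro s m n j l i hi
      have h1 := lo.product (c := 0) (σ := s) (q := q1 m n) (j := j) (i := i) 0 l hi
      rw [st_q1] at h1
      exact h1
    mdeg4 := by
      intro m n i a b _ _ hab h1 h2
      by_contra h5
      exact hab (lo.m4 (g4' h5) h1 h2)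
    mdeg5 := by
      intro m n i a b c _ _ _ hab hac hbc h1 h2 h3
      by_contra h6
      exact lo.m5 (g4' h6) hab hac hbc h1 h2 h3
    mdeg6 := fun m n i a b c d _ _ _ _ hab hac had hbc hbd hcd h1 h2 h3 h4 =>
      lo.m6 hab hac had hbc hbd hcd h1 h2 h3 h4
    k23 := fun m n a b c d e hab hcd hce hde _ _ _ _ _ _ h1 h2 h3 h4 h5 h6 =>
      lo.k23 hab hcd hce hde h1 h2 h3 h4 h5 h6
    c4 := by
      intro m n a b c d hab hcd _ _ _ _ h1 h2 h3 h4
      by_contra h6
      exact lo.c5 (g4' h6) hab hcd h1 h2 h3 h4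
    notsub := by
      intro m n j
      rcases lo.notsub (q1 m n) 0 j with h1 | ⟨i, h1, h2⟩
      · exact Or.inl (g4 h1)
      · rw [st_q1] at h1
        exact Or.inr ⟨i, h1, h2⟩
    third := by
      intro m n j l t h1 h2 ht
      have h3 := lo.third (q := q1 m n) (c := 0) (c' := 0) (j := j) (k := l) (t := t) (npk h1 h2)
        (by rw [st_q1, st_q1]; exact ht)
      rcases h3 with h3 | ⟨i, h4, h5, h6⟩
      · exact Or.inl (g4 h3)
      · rw [st_q1] at h5
        exact Or.inr ⟨i, h4, h5, h6⟩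
    lemB := by
      intro m n j l i i' h1 h2 _ h3 h4
      obtain ⟨c, h5, h6, h7⟩ := lo.lemmaB (q := q1 m n) (c := 0) (c' := 0) (j := j) (k := l)
        (npk h1 h2) (a := i) (b := i') (by rw [st_q1]; exact h3) (by rw [st_q1]; exact h4)
      exact ⟨c, h6, h7, h5⟩
    wlen := hlen
    wstep := fun i => win_step (hle i) u
    winn := by
      intro s j i hi
      have hi : Inn (F s) T (lK z (fun _ : Fin 1 => u) (q1 0 0)) (j.val : ℝ) i := hi
      rw [e0] at hi
      exact hin s j i hi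
    wout := by
      intro s j i hi
      have hi : Out (F s) T (lK z (fun _ : Fin 1 => u) (q1 0 0)) (j.val : ℝ) i := hi
      rw [e0] at hi
      exact hout s j i hi
    cover := hcov
    side := by
      intro k c hc
      rw [tb] at hc
      exact (H485.tt_iff hf.irr).1 hc
    icT := fun k c hc => (tb k c).2 hc.1
    ocT := fun k c hc => (tb k c).2 hc.1
    hullO := hhO
    hullI := hhI
    sidezI := by
      intro s k c hc
      have hc : Inn (F s) T (lK z (fun _ : Fin 1 => u) (q1 0 0)) (k.val : ℝ) c := hc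
      rw [e0] at hc
      refine H485.ic_of_in (σ := s) hf ?_
      unfold H437.IN
      rw [lp_zero]
      exact hc
    sidezO := by
      intro s k c hc
      have hc : Out (F s) T (lK z (fun _ : Fin 1 => u) (q1 0 0)) (k.val : ℝ) c := hc
      rw [e0] at hc
      refine H485.oc_of_out (σ := s) hf ?_
      unfold H437.OUT
      rw [lp_zero]
      exact hc
    sidelI := by
      intro s k m c hw hl
      have hm : ∀ (s : Bool) (k m : Fin 6), swI s k m = true → m ≠ k + 3 := by decide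
      refine (H485.side_lt hf (hm s k m hw) (i := c) ?_).2 (mod_i s s k m hw)
      have hl : c ∈ H437.lt (F s) T (lK z (fun _ : Fin 1 => u) (q1 (dx k + dx m) (dy k + dy m)))
        (((m + 3 : Fin 6).val : ℕ) : ℝ) := hl
      rw [lK_q1] at hl
      have e : ∀ k m : Fin 6, H437.dx k + H437.dx m = dx k + dx m ∧
        H437.dy k + H437.dy m = dy k + dy m := by decide
      unfold H437.LT
      rw [(e k m).1, (e k m).2]
      exact hl
    sidelO := by
      intro s k m c hw hl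
      have hm : ∀ (s : Bool) (k m : Fin 6), (swO s k m = true ∨ m = k) → m ≠ k + 3 ∧
        sgn (m - k) s = s := by decide
      refine (H485.side_lt hf (hm s k m hw).1 (i := c) ?_).1 (hm s k m hw).2
      have hl : c ∈ H437.lt (F s) T (lK z (fun _ : Fin 1 => u) (q1 (dx k + dx m) (dy k + dy m)))
        (((m + 3 : Fin 6).val : ℕ) : ℝ) := hl
      rw [lK_q1] at hl
      have e : ∀ k m : Fin 6, H437.dx k + H437.dx m = dx k + dx m ∧
        H437.dy k + H437.dy m = dy k + dy m := by decide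
      unfold H437.LT
      rw [(e k m).1, (e k m).2]
      exact hl }

theorem hin_ofw (hf : Fr U T u F) (w : WinData T z L R) (hs : SideH T z L R)
    (hH : ∀ i, Hon U z L R i) (s : Bool) (j i : Fin 6)
    (hi : Inn (F s) T z (j.val : ℝ) i) :
    H429.inn (bif s then wr L R u i else wn L R u i) (j.val : ZMod 6) := by
  have hi' : ∀ᶠ v in (F s : Filter ℝ), OccIn T (pt z (v + (j.val : ℝ))) {x | dist x z < 1} i := hi
  obtain ⟨v, ⟨h1, h2⟩, h3, h4⟩ := ((hi'.and (ev_win hf L R s)).and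
    ((hf.lc s z (j.val : ℝ)).and (Eventually.of_forall fun _ => trivial))).exists
  have h5 := congrFun h2 i
  rw [← h5]
  rcases hs _ h3 i (h1.mem hf.irr) with h6 | h6
  · exact front_inn w h6
  · exact (no_inn (hH i) h6 (innN_of_occ hf.irr h1)).elim

theorem hout_ofw (hf : Fr U T u F) (w : WinData T z L R) (hs : SideH T z L R)
    (hH : ∀ i, Hon U z L R i) (s : Bool) (j i : Fin 6)
    (hi : Out (F s) T z (j.val : ℝ) i) :
    H429.out (bif s then wr L R u i else wn L R u i) (j.val : ZMod 6) := by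
  have hi' : ∀ᶠ v in (F s : Filter ℝ), OccIn T (pt z (v + (j.val : ℝ))) {x | 1 < dist x z} i := hi
  obtain ⟨v, ⟨h1, h2⟩, h3, h4⟩ := ((hi'.and (ev_win hf L R s)).and
    ((hf.lc s z (j.val : ℝ)).and (Eventually.of_forall fun _ => trivial))).exists
  have h5 := congrFun h2 i
  rw [← h5]
  rcases hs _ h3 i (h1.mem hf.irr) with h6 | h6
  · exact (no_out (hH i) h6 (outN_of_occ hf.irr h1)).elim
  · exact back_out w h6

theorem hio_ofw (hf : Fr U T u F) (w : WinData T z L R) (hs : SideH T z L R)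
    (hH : ∀ i, Hon U z L R i) (s : Bool) (j i : Fin 6)
    (hi : Inn (F s) T z (j.val : ℝ) i) : ¬ Out (F s) T z (j.val : ℝ) i := by
  intro ho
  have hi' : ∀ᶠ v in (F s : Filter ℝ), OccIn T (pt z (v + (j.val : ℝ))) {x | dist x z < 1} i := hi
  have ho' : ∀ᶠ v in (F s : Filter ℝ), OccIn T (pt z (v + (j.val : ℝ))) {x | 1 < dist x z} i := ho
  obtain ⟨v, ⟨h1, h2⟩, h3⟩ := ((hi'.and ho').and (hf.lc s z (j.val : ℝ))).exists
  rcases hs _ h3 i (h1.mem hf.irr) with h6 | h6
  · exact no_out (hH i) h6 (outN_of_occ hf.irr h2)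
  · exact no_inn (hH i) h6 (innN_of_occ hf.irr h1)

/-- the letters of a held column -/
theorem io_of_holdw (hf : Fr U T u F) (w : WinData T z L R)
    (hH : ∀ i, Hon U z L R i) {s : Bool} {g : Cl}
    (hg : ∀ᶠ v in (F s : Filter ℝ), v ∈ WinData.G T z L R ∧ Hold T z L R g v) (j : Fin 6) :
    Inn (F s) T z (j.val : ℝ) (g j).1 ∧ Out (F s) T z (j.val : ℝ) (g j).2 := by
  have m1 : (g j).1 ∈ H437.lt (F s) T z (j.val : ℝ) := hg.mono fun v hv => (hv.2 j).1
  have m2 : (g j).2 ∈ H437.lt (F s) T z (j.val : ℝ) := hg.mono fun v hv => (hv.2 j).2.1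
  obtain ⟨v, ⟨hG, hv⟩⟩ := hg.exists
  have hne : (g j).1 ≠ (g j).2 := fun e =>
    H429.not_inn_out (hv j).2.2.1 (by rw [e]; exact (hv j).2.2.2)
  constructor
  · rcases inn_or_out hf.irr (hf.lc s z _) m1 m2 hne with h1 | h1
    · exact h1
    · exfalso
      obtain ⟨v, ⟨hG, hv⟩, h2⟩ := (hg.and (show ∀ᶠ v in (F s : Filter ℝ),
        OccIn T (pt z (v + (j.val : ℝ))) {x | 1 < dist x z} (g j).1 from h1)).exists
      refine no_out (hH _) ?_ (outN_of_occ hf.irr h2)
      obtain ⟨n, h4, h5⟩ := (w.inn_iff (t := v) (i := (g j).1) (j := (j.val : ℤ))).1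
        (by simpa using (hv j).2.2.1)
      rw [← H429.sc_int, H429.le_sc] at h4
      rw [← H429.sc_int, H429.sc_lt] at h5
      push_cast at h4 h5
      refine ⟨n, lt_of_le_of_ne (by linarith) fun he => ?_, by linarith⟩
      exact hG.2 ⟨(g j).1, (j.val : ℤ) - 3 - 6 * n, Or.inl (by push_cast; linarith)⟩
  · rcases inn_or_out hf.irr (hf.lc s z _) m2 m1 hne.symm with h1 | h1
    · exfalso
      obtain ⟨v, ⟨hG, hv⟩, h2⟩ := (hg.and (show ∀ᶠ v in (F s : Filter ℝ),
        OccIn T (pt z (v + (j.val : ℝ))) {x | dist x z < 1} (g j).2 from h1)).exists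
      refine no_inn (hH _) ?_ (innN_of_occ hf.irr h2)
      obtain ⟨n, h4, h5⟩ := (w.out_iff (t := v) (i := (g j).2) (j := (j.val : ℤ))).1
        (by simpa using (hv j).2.2.2)
      rw [← H429.sc_int, H429.le_sc] at h4
      rw [← H429.sc_int, H429.sc_lt] at h5
      push_cast at h4 h5
      refine ⟨n, lt_of_le_of_ne (by linarith) fun he => ?_, by linarith⟩
      exact hG.2 ⟨(g j).2, (j.val : ℤ) - 6 * n, Or.inl (by push_cast; linarith)⟩
    · exact h1

/-- the rules at a time of the line -/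
theorem loww_at (h : Irr U T)
    (hmin : ∀ z, 4 ≤ (T z).ncard → ∀ s, s ⊆ T z → s ≠ T z →
      ¬ ∀ᶠ w in 𝓝 z, ∃ i ∈ s, w ∈ U i ∨ (w ∈ XX U ∧ i ∈ Pal U w))
    (hz : ∀ i, i ∈ T z) (w : WinData T z L R) (hs : SideH T z L R)
    (hH : ∀ i, Hon U z L R i) (hf : Fr U T u F) :
    LOWw (atm U T z L R u F) :=
  loww_of hf hmin hz w.le
    (fun _ c hc h0 h1 => no_out (hH c) (front_of w h0 h1) hc.2)
    (fun _ c hc h0 h1 => no_inn (hH c) (back_of w h0 h1) hc.2)
    (hlen_of h w u) (hcov_of h w u) (hin_ofw hf w hs hH) (hout_ofw hf w hs hH) (hio_ofw hf w hs hH)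

/-- **a pair of the table is impossible**, no turn -/
theorem kill_hold0w (h : Irr U T)
    (hmin : ∀ z, 4 ≤ (T z).ncard → ∀ s, s ⊆ T z → s ≠ T z →
      ¬ ∀ᶠ w in 𝓝 z, ∃ i ∈ s, w ∈ U i ∨ (w ∈ XX U ∧ i ∈ Pal U w))
    (hz : ∀ i, i ∈ T z) (w : WinData T z L R) (hs : SideH T z L R)
    (hH : ∀ i, Hon U z L R i) (σ : Equiv.Perm (Fin 6))
    {p q g : ℕ} (hx : ∃ t ∈ H617.WZ.tabs, ∃ l ∈ t, (p, q, g) ∈ l) {a b : Cl}
    (ha : ∀ j, a j = (σ (dcol p j).1, σ (dcol p j).2))
    (hb : ∀ j, b j = (σ (dcol q j).1, σ (dcol q j).2))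
    (hp : ∃ᶠ v in 𝓝[<] u, v ∈ WinData.G T z L R ∧ Hold T z L R a v)
    (hq : ∃ᶠ v in 𝓝[>] u, v ∈ WinData.G T z L R ∧ Hold T z L R b v) : False := by
  have key : ∀ (g : Cl) (v : ℝ), (v ∈ WinData.G T z L R ∧ Hold T z L R g v) →
      ∀ᶠ v' in 𝓝 v, v' ∈ {v | v ∈ WinData.G T z L R ∧ Hold T z L R g v} := by
    intro g v hv
    filter_upwards [G_open.mem_nhds hv.1, hold_const (A := g) hv.1] with v' h1 h2
    exact ⟨h1, h2.2 hv.2⟩
  obtain ⟨F, hf, h2, h3⟩ := exists_fr_of (u := u) h (hp.mono (key a)) (hq.mono (key b))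
  have hlow := loww_at h hmin hz w hs hH hf
  have e0 : lK z (fun _ : Fin 1 => u) (q1 0 0) = z := by rw [lK_q1, lp_zero]
  refine H617.WZ.kill (hlow.perm σ) hx (fun j => ?_) fun j => ?_
  · have h4 := io_of_holdw (s := false) hf w hH h2 j
    rw [ha] at h4
    constructor
    · show Inn (F false) T (lK z (fun _ : Fin 1 => u) (q1 0 0)) (j.val : ℝ) (σ (dcol p j).1)
      rw [e0]; exact h4.1
    · show Out (F false) T (lK z (fun _ : Fin 1 => u) (q1 0 0)) (j.val : ℝ) (σ (dcol p j).2)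
      rw [e0]; exact h4.2
  · have h4 := io_of_holdw (s := true) hf w hH h3 j
    rw [hb] at h4
    constructor
    · show Inn (F true) T (lK z (fun _ : Fin 1 => u) (q1 0 0)) (j.val : ℝ) (σ (dcol q j).1)
      rw [e0]; exact h4.1
    · show Out (F true) T (lK z (fun _ : Fin 1 => u) (q1 0 0)) (j.val : ℝ) (σ (dcol q j).2)
      rw [e0]; exact h4.2

/-- **a pair of the table is impossible**, renamed and turned -/
theorem kill_holdw (h : Irr U T)
    (hmin : ∀ z, 4 ≤ (T z).ncard → ∀ s, s ⊆ T z → s ≠ T z →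
      ¬ ∀ᶠ w in 𝓝 z, ∃ i ∈ s, w ∈ U i ∨ (w ∈ XX U ∧ i ∈ Pal U w))
    (hz : ∀ i, i ∈ T z) (w : WinData T z L R) (hs : SideH T z L R)
    (hH : ∀ i, Hon U z L R i) (σ : Equiv.Perm (Fin 6))
    (r : Fin 6) {p q g : ℕ} (hx : ∃ t ∈ H617.WZ.tabs, ∃ l ∈ t, (p, q, g) ∈ l)
    (hp : ∃ᶠ v in 𝓝[<] u, v ∈ WinData.G T z L R ∧ Hold T z L R (rcol σ r p) v)
    (hq : ∃ᶠ v in 𝓝[>] u, v ∈ WinData.G T z L R ∧ Hold T z L R (rcol σ r q) v) : False := by
  have e : ∀ r j : Fin 6, j + f6 (-r).val + r = j := by decide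
  refine kill_hold0w (u := u + ((-r).val : ℕ)) h hmin hz w hs hH σ hx (fun j => ?_) (fun j => ?_)
    (freq_turn (Or.inl rfl) _ (-r).val u hp) (freq_turn (Or.inr rfl) _ (-r).val u hq)
  · rw [sh_iter]
    show rcol σ r p (j + f6 (-r).val) = _
    unfold rcol
    rw [e]
  · rw [sh_iter]
    show rcol σ r q (j + f6 (-r).val) = _
    unfold rcol
    rw [e]

/-- the pairs of the table, renamed and turned -/
def KldW (a b : Cl) : Prop :=
  ∃ (σ : Equiv.Perm (Fin 6)) (r : Fin 6) (p q g : ℕ),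
    (∃ t ∈ H617.WZ.tabs, ∃ l ∈ t, (p, q, g) ∈ l) ∧ a = rcol σ r p ∧ b = rcol σ r q

/-- **no event of the table**, one honest direction in each window -/
theorem kill_LSHon (h : Irr U T)
    (hmin : ∀ z, 4 ≤ (T z).ncard → ∀ s, s ⊆ T z → s ≠ T z →
      ¬ ∀ᶠ w in 𝓝 z, ∃ i ∈ s, w ∈ U i ∨ (w ∈ XX U ∧ i ∈ Pal U w))
    (hz : ∀ i, i ∈ T z) (w : WinData T z L R)
    (hH : ∀ i, Hon U z L R i) :
    ∀ u, ∀ s ∈ LS T z L R u, ∀ s' ∈ RS T z L R u, ¬ KldW s.1 s'.1 := by
  have hs : SideH T z L R := w.side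
  rintro u s h1 s' h2 ⟨σ, r, p, q, g, hx, e1, e2⟩
  have h1' : ∃ᶠ v in 𝓝[<] u, v ∈ WinData.G T z L R ∧ WinData.st T z L R v = s := h1
  have h2' : ∃ᶠ v in 𝓝[>] u, v ∈ WinData.G T z L R ∧ WinData.st T z L R v = s' := h2
  refine kill_holdw h hmin hz w hs hH σ r hx (u := u) (h1'.mono fun v hv => ⟨hv.1, ?_⟩)
    (h2'.mono fun v hv => ⟨hv.1, ?_⟩)
  · rw [← e1, ← hv.2]; exact hold_st w hv.1
  · rw [← e2, ← hv.2]; exact hold_st w hv.1

end Vale.Agent.P032.H184.Hon617
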