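import Vale.Agent.P032.H184.Perm

/-!
# P032: the letter rules with one honest direction for each colour

`LOWw A` : the rules `LOW` of `H184.LO` with the weaker rules `hullO`, `hullI` (the window of a colour
outside near the neighbour is not strictly in front); they need only one honest direction inside
each window.
-/

namespace Vale.Agent.P032.H617w

open Vale.Agent.P032.H859.Rup Vale.Agent.P032.H184

/-- **the rules** -/
structure LOWw (A : At) : Prop where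
  six : ∀ i, A.TT 0 0 i
  memb : ∀ s m n j i, A.LT s m n j i → A.TT (m + dx j) (n + dy j) i
  neI : ∀ s m n j, ∃ i, A.IN s m n j i
  neO : ∀ s m n j, ∃ i, A.OUT s m n j i
  inL : ∀ s m n j i, A.IN s m n j i → A.LT s m n j i
  outL : ∀ s m n j i, A.OUT s m n j i → A.LT s m n j i
  lio : ∀ s m n j i, A.LT s m n j i → A.IN s m n j i ∨ A.OUT s m n j i
  pair2 : ∀ s m n j i, A.LT s m n j i → A.TT m n i → ∃ i', i' ≠ i ∧ A.LT s m n j i'
  sub4 : ∀ s m n j, A.GE m n 4 ∨ ∃ i, A.LT s m n j i ∧ ¬ A.TT m n i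
  sideIO : ∀ s j i, A.IN s 0 0 j i → ¬ A.OUT s 0 0 j i
  side4 : ∀ s m n j x y a b, x ≠ y → x ≠ a → x ≠ b → y ≠ a → y ≠ b → a ≠ b → A.MM m n x y →
    A.MM m n a b → A.IN s m n j x → A.OUT s m n j x → A.GE m n 5
  symM : ∀ m n a b, A.MM m n a b → A.MM m n b a
  defM : ∀ s m n j a b, a ≠ b → A.LT s m n j a → A.LT s m n j b → A.TT m n a → A.TT m n b →
    A.MM m n a b ∨ ∃ c, c ≠ a ∧ c ≠ b ∧ A.LT s m n j c
  sweepO : ∀ s m n j j', swO s j j' = true →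
    ∀ s', ∃ c, ¬ A.LT s m n j c ∧ A.OUT s' (m + dx j) (n + dy j) j' c
  sweepI : ∀ s m n j j', swI s j j' = true →
    ∀ s', ∃ c, ¬ A.LT s m n j c ∧ A.IN s' (m + dx j) (n + dy j) j' c
  wedgeO : ∀ s m n j, ∃ c, ¬ A.LT s m n j c ∧ A.OUT s (m + dx j) (n + dy j) j c
  wedgeI : ∀ s m n j, ∃ c, ¬ A.LT s m n j c ∧ A.IN (!s) (m + dx j) (n + dy j) j c
  wedgeO' : ∀ s m n j, ∃ c, ¬ A.LT s m n j c ∧ A.OUT (!s) (m + dx j) (n + dy j) (j + 3) c
  wedgeI' : ∀ s m n j, ∃ c, ¬ A.LT s m n j c ∧ A.IN s (m + dx j) (n + dy j) (j + 3) c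
  sixty : ∀ s m n j i, A.LT s m n j i → ¬ A.LT s m n (j + 1) i
  product : ∀ s m n j l i, A.LT s m n j i → ¬ A.LT s (m + dx l) (n + dy l) j i
  mdeg4 : ∀ m n i a b, i ≠ a → i ≠ b → a ≠ b → A.MM m n i a → A.MM m n i b → A.GE m n 5
  mdeg5 : ∀ m n i a b c, i ≠ a → i ≠ b → i ≠ c → a ≠ b → a ≠ c → b ≠ c →
    A.MM m n i a → A.MM m n i b → A.MM m n i c → A.GE m n 6
  mdeg6 : ∀ m n i a b c d, i ≠ a → i ≠ b → i ≠ c → i ≠ d → a ≠ b → a ≠ c → a ≠ d → b ≠ c → b ≠ d →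
    c ≠ d → A.MM m n i a → A.MM m n i b → A.MM m n i c → ¬ A.MM m n i d
  k23 : ∀ m n a b c d e, a ≠ b → c ≠ d → c ≠ e → d ≠ e → a ≠ c → a ≠ d → a ≠ e → b ≠ c → b ≠ d →
    b ≠ e → A.MM m n a c → A.MM m n a d → A.MM m n a e → A.MM m n b c → A.MM m n b d →
    ¬ A.MM m n b e
  c4 : ∀ m n a b c d, a ≠ b → c ≠ d → a ≠ c → a ≠ d → b ≠ c → b ≠ d →
    A.MM m n a c → A.MM m n a d → A.MM m n b c → A.MM m n b d → A.GE m n 6
  notsub : ∀ m n j, A.GE m n 4 ∨ ∃ i, A.TT (m + dx j) (n + dy j) i ∧ ¬ A.TT m n i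
  third : ∀ m n j l t, l ≠ j → l ≠ j + 3 → A.TT (m + dx j + dx l) (n + dy j + dy l) t →
    A.GE m n 4 ∨ ∃ i, i ≠ t ∧ A.TT (m + dx j) (n + dy j) i ∧ ¬ A.TT m n i
  lemB : ∀ m n j l i i', l ≠ j → l ≠ j + 3 → i ≠ i' → A.TT (m + dx j) (n + dy j) i →
    A.TT (m + dx l) (n + dy l) i' → ∃ c, c ≠ i ∧ c ≠ i' ∧ A.TT m n c
  wlen : ∀ s i, (A.win s i).2 ≤ 3
  wstep : ∀ i, WStep (A.win false i) (A.win true i)
  winn : ∀ s j i, A.IN s 0 0 j i → inn (A.win s i) (j.val : ZMod 6)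
  wout : ∀ s j i, A.OUT s 0 0 j i → out (A.win s i) (j.val : ZMod 6)
  cover : ∀ s (m : ZMod 6), ∃ i, ∃ d : Fin 3, d.val < (A.win s i).2 ∧ (A.win s i).1 + d.val + 1 = m
  side : ∀ k c, A.TT (dx k) (dy k) c → A.IC k c ∨ A.OC k c
  icT : ∀ k c, A.IC k c → A.TT (dx k) (dy k) c
  ocT : ∀ k c, A.OC k c → A.TT (dx k) (dy k) c
  hullO : ∀ k c, A.OC k c → inn (A.win false c) (k.val : ZMod 6) →
    ¬ inn (A.win true c) (k.val : ZMod 6)
  hullI : ∀ k c, A.IC k c → out (A.win false c) (k.val : ZMod 6) →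
    ¬ out (A.win true c) (k.val : ZMod 6)
  sidezI : ∀ s k c, A.IN s 0 0 k c → A.IC k c
  sidezO : ∀ s k c, A.OUT s 0 0 k c → A.OC k c
  sidelI : ∀ s k m c, swI s k m = true → A.LT s (dx k + dx m) (dy k + dy m) (m + 3) c → A.IC k c
  sidelO : ∀ s k m c, (swO s k m = true ∨ m = k) →
    A.LT s (dx k + dx m) (dy k + dy m) (m + 3) c → A.OC k c

variable {A : At}

theorem LOWw.perm (h : LOWw A) (σ : Equiv.Perm (Fin 6)) : LOWw (A.perm σ) := by
  have n : ∀ {a b : Fin 6}, a ≠ b → σ a ≠ σ b := fun hab e => hab (σ.injective e)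
  have nn : ∀ {a : Fin 6} {i : Fin 6}, σ a ≠ σ i → a ≠ i := fun hab e => hab (by rw [e])
  exact {
    six := fun i => h.six _
    memb := fun s m n j i hi => h.memb _ _ _ _ _ hi
    neI := fun s m n j => exσ σ (h.neI s m n j)
    neO := fun s m n j => exσ σ (h.neO s m n j)
    inL := fun s m n j i hi => h.inL _ _ _ _ _ hi
    outL := fun s m n j i hi => h.outL _ _ _ _ _ hi
    lio := fun s m n j i hi => h.lio _ _ _ _ _ hi
    pair2 := by
      intro s m n j i hi ht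
      obtain ⟨i', h1, h2⟩ := exσ σ (h.pair2 _ _ _ _ _ hi ht)
      exact ⟨i', nn h1, h2⟩
    sub4 := by
      intro s m n j
      rcases h.sub4 s m n j with h1 | h1
      · exact Or.inl (ge_perm.2 h1)
      · exact Or.inr (exσ σ h1)
    sideIO := fun s j i hi => h.sideIO _ _ _ hi
    side4 := fun s m n' j x y a b h1 h2 h3 h4 h5 h6 h7 h8 h9 h10 =>
      ge_perm.2 (h.side4 s m n' j _ _ _ _ (n h1) (n h2) (n h3) (n h4) (n h5) (n h6) h7 h8 h9 h10)
    symM := fun m n a b hm => h.symM _ _ _ _ hm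
    defM := by
      intro s m n' j a b hab h1 h2 h3 h4
      rcases h.defM s m n' j _ _ (n hab) h1 h2 h3 h4 with h5 | h5
      · exact Or.inl h5
      · obtain ⟨c, h6, h7, h8⟩ := exσ σ h5
        exact Or.inr ⟨c, nn h6, nn h7, h8⟩
    sweepO := fun s m n j j' hs s' => exσ σ (h.sweepO s m n j j' hs s')
    sweepI := fun s m n j j' hs s' => exσ σ (h.sweepI s m n j j' hs s')
    wedgeO := fun s m n j => exσ σ (h.wedgeO s m n j)
    wedgeI := fun s m n j => exσ σ (h.wedgeI s m n j)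
    wedgeO' := fun s m n j => exσ σ (h.wedgeO' s m n j)
    wedgeI' := fun s m n j => exσ σ (h.wedgeI' s m n j)
    sixty := fun s m n j i hi => h.sixty _ _ _ _ _ hi
    product := fun s m n j l i hi => h.product _ _ _ _ _ _ hi
    mdeg4 := fun m n' i a b h1 h2 h3 h4 h5 =>
      ge_perm.2 (h.mdeg4 m n' _ _ _ (n h1) (n h2) (n h3) h4 h5)
    mdeg5 := fun m n' i a b c h1 h2 h3 h4 h5 h6 h7 h8 h9 =>
      ge_perm.2 (h.mdeg5 m n' _ _ _ _ (n h1) (n h2) (n h3) (n h4) (n h5) (n h6) h7 h8 h9)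
    mdeg6 := fun m n' i a b c d h1 h2 h3 h4 h5 h6 h7 h8 h9 h10 =>
      h.mdeg6 m n' _ _ _ _ _ (n h1) (n h2) (n h3) (n h4) (n h5) (n h6) (n h7) (n h8) (n h9) (n h10)
    k23 := fun m n' a b c d e h1 h2 h3 h4 h5 h6 h7 h8 h9 h10 =>
      h.k23 m n' _ _ _ _ _ (n h1) (n h2) (n h3) (n h4) (n h5) (n h6) (n h7) (n h8) (n h9) (n h10)
    c4 := fun m n' a b c d h1 h2 h3 h4 h5 h6 h7 h8 h9 h10 =>
      ge_perm.2 (h.c4 m n' _ _ _ _ (n h1) (n h2) (n h3) (n h4) (n h5) (n h6) h7 h8 h9 h10)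
    notsub := by
      intro m n' j
      rcases h.notsub m n' j with h1 | h1
      · exact Or.inl (ge_perm.2 h1)
      · exact Or.inr (exσ σ h1)
    third := by
      intro m n' j l t h1 h2 h3
      rcases h.third m n' j l _ h1 h2 h3 with h4 | h4
      · exact Or.inl (ge_perm.2 h4)
      · obtain ⟨i, h5, h6, h7⟩ := exσ σ h4
        exact Or.inr ⟨i, nn h5, h6, h7⟩
    lemB := by
      intro m n' j l i i' h1 h2 h3 h4 h5
      obtain ⟨c, h6, h7, h8⟩ := exσ σ (h.lemB m n' j l _ _ h1 h2 (n h3) h4 h5)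
      exact ⟨c, nn h6, nn h7, h8⟩
    wlen := fun s i => h.wlen s _
    wstep := fun i => h.wstep _
    winn := fun s j i hi => h.winn _ _ _ hi
    wout := fun s j i hi => h.wout _ _ _ hi
    cover := fun s m => exσ σ (h.cover s m)
    side := fun k c hc => h.side _ _ hc
    icT := fun k c hc => h.icT _ _ hc
    ocT := fun k c hc => h.ocT _ _ hc
    hullO := fun k c hc => h.hullO _ _ hc
    hullI := fun k c hc => h.hullI _ _ hc
    sidezI := fun s k c hc => h.sidezI _ _ _ hc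
    sidezO := fun s k c hc => h.sidezO _ _ _ hc
    sidelI := fun s k m c hw hl => h.sidelI _ _ _ _ hw hl
    sidelO := fun s k m c hw hl => h.sidelO _ _ _ _ hw hl }

end Vale.Agent.P032.H617w
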